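import Vale.Agent.P088.R2.H794.B.Spec
import Vale.Agent.P088.H198.SdQ

/-!
# P088, phase 2: from the Dirichlet energies to connections and data on a patch
-/

open MeasureTheory Set Filter Topology
open scoped ContDiff Matrix

noncomputable section

namespace Vale.Agent.P088.HY.Bd

open Vale.Agent.P088.LR Vale.Agent.P088.LR.B Vale.Agent.P088.LR.CF Vale.Agent.P088.H639

/-- Connections on top of a theorem for the Dirichlet energies, data on a patch. -/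
theorem rigT_of {n : ℕ} (hn : 3 ≤ n) {ρ : V n → ℝ} (hρ : SDom ρ) {g₁ g₂ : MF n}
    (hg₁ : SmM g₁) (hg₂ : SmM g₂) (hp₁ : ∀ x, (g₁ x).PosDef) (hp₂ : ∀ x, (g₂ x).PosDef)
    (hmain : SE (Om ρ) (sg g₁) (sg g₂) → ∃ Φ Ψ, IsoOn ρ g₁ g₂ Φ Ψ) : RigT ρ g₁ g₂ := by
  have hb : Bornology.IsBounded (Om ρ) :=
    hρ.bd.subset fun x (hx : 0 < ρ x) => (show 0 ≤ ρ x from hx.le)
  refine ⟨hmain, fun N hN A₁ A₂ hA₁ hA₂ hT G hG hAcc hP => ?_⟩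
  have hD : SDU (Om ρ) g₁ A₁ g₂ A₂ :=
    sdu_all ρ hρ g₁ g₂ A₁ A₂ hg₁ hg₂ hp₁ hp₂ hA₁ hA₂ G hG hAcc hP
  obtain ⟨hsd, hconn⟩ := H158.connOm (by omega) hN hρ.sm.continuous hb hg₁ hg₂ hp₁ hp₂ hA₁ hA₂
    hT hD
  obtain ⟨Φ, Ψ, hF⟩ := hmain (H639.SE_of_SD hb
    (fun i j => (H833.smM_sg hg₂ hp₂ i j).continuous) (H833.symm_sg hp₂) (H639.psd_sg hp₂)
    (fun i j => (H833.smM_sg hg₁ hp₁ i j).continuous) (H833.symm_sg hp₁)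
    (H639.psd_sg hp₁) hsd)
  obtain ⟨U, hU⟩ := hconn Φ hF.1 hF.2.2.2.2.2.1 hF.2.2.2.2.1
  exact ⟨Φ, Ψ, U, hF, hU⟩

/-- (B_TOP) from (B_SC). -/
theorem rowBTOP : RowBSC → RowBTOP := by
  intro hS n hn ρ hρ
  obtain ⟨k, ε, hε, h⟩ := hS n hn ρ hρ
  exact ⟨k, ε, hε, fun g₁ g₂ hg₁ hg₂ hp₁ hp₂ hc₁ hc₂ =>
    rigT_of hn hρ hg₁ hg₂ hp₁ hp₂ (h g₁ g₂ hg₁ hg₂ hp₁ hp₂ hc₁ hc₂)⟩

end Vale.Agent.P088.HY.Bd
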