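import Vale.Agent.P088.R2.H794.B.Spec2
import Vale.Agent.P088.R2.H593.BTop

/-!
# P088, phase 2b: connections and data on a patch, general form; final statement for domains
-/

open MeasureTheory Set Filter Topology
open scoped ContDiff Matrix

noncomputable section

namespace Vale.Agent.P088.HY.Bd

open Vale.Agent.P088.LR Vale.Agent.P088.LR.B Vale.Agent.P088.LR.CF Vale.Agent.P088.H639

/-- (B_RT). -/
theorem rowBRT : RowBRT :=
  fun _ hn _ hρ _ _ hg₁ hg₂ hp₁ hp₂ h => rigT_of hn hρ hg₁ hg₂ hp₁ hp₂ h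

theorem cl_le {n : ℕ} {k k' : ℕ} {a : ℝ} {f : V n → ℝ} (h : Cl k' a f) (hk : k ≤ k') :
    Cl k a f := fun m hm => h m (hm.trans hk)

/-- Scaled and translated smooth bounded domains are smooth bounded domains. -/
theorem sdom_scR {n : ℕ} {ρ : V n → ℝ} (hρ : SDom ρ) {r : ℝ} (hr : 0 < r) (x₀ : V n) :
    SDom (scR ρ r x₀) := by
  have hA : ContDiff ℝ ∞ (fun x : V n => r⁻¹ • (x - x₀)) :=
    (contDiff_id.sub contDiff_const).const_smul _
  have hri : r⁻¹ ≠ 0 := inv_ne_zero hr.ne'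
  refine ⟨hρ.sm.comp hA, ?_, fun x hx => ?_⟩
  · obtain ⟨R, hR⟩ := hρ.bd.subset_closedBall (0 : V n)
    refine (Metric.isBounded_closedBall (x := x₀) (r := r * R)).subset fun x hx => ?_
    have h1 : r⁻¹ • (x - x₀) ∈ Metric.closedBall (0 : V n) R := hR hx
    rw [mem_closedBall_zero_iff, norm_smul, Real.norm_of_nonneg (inv_nonneg.2 hr.le)] at h1
    rw [Metric.mem_closedBall, dist_eq_norm]
    have h2 := mul_le_mul_of_nonneg_left h1 hr.le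
    rwa [← mul_assoc, mul_inv_cancel₀ hr.ne', one_mul] at h2
  · have hd : HasFDerivAt (fun x : V n => r⁻¹ • (x - x₀))
        (r⁻¹ • ContinuousLinearMap.id ℝ (V n)) x :=
      ((hasFDerivAt_id x).sub_const x₀).const_smul r⁻¹
    have h1 : HasFDerivAt (scR ρ r x₀)
        ((fderiv ℝ ρ (r⁻¹ • (x - x₀))).comp (r⁻¹ • ContinuousLinearMap.id ℝ (V n))) x :=
      ((hρ.sm.differentiable (by simp)) (r⁻¹ • (x - x₀))).hasFDerivAt.comp x hd
    rw [h1.fderiv]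
    intro h0
    refine hρ.nz _ hx ?_
    ext v
    have h2 := congrArg (fun L : V n →L[ℝ] ℝ => L (r • v)) h0
    simp only [ContinuousLinearMap.comp_apply, ContinuousLinearMap.smul_apply,
      ContinuousLinearMap.id_apply, ContinuousLinearMap.zero_apply] at h2
    rw [smul_smul, inv_mul_cancel₀ hr.ne', one_smul] at h2
    simpa using h2

/-- The final statement for domains from (B_SM) and (B_CC). -/
theorem finDom_of (hSM : RowBSM) (hCC : RowBCC) : FinDom := by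
  intro n hn ρ hρ B hB
  obtain ⟨k₁, r₀, hr₀, h₁⟩ := hSM n hn ρ hρ B hB
  obtain ⟨k₂, ε, hε, h₂⟩ := hCC n hn ρ hρ B hB
  refine ⟨max k₁ k₂, ⟨r₀, hr₀, ?_⟩, ε, hε, ?_⟩
  · intro r x₀ hr hrr g₁ g₂ hg₁ hg₂ hp₁ hp₂ hc₁ hc₂ hd₁ hd₂
    exact rowBRT n hn _ (sdom_scR hρ hr x₀) g₁ g₂ hg₁ hg₂ hp₁ hp₂
      (h₁ r x₀ hr hrr g₁ g₂ hg₁ hg₂ hp₁ hp₂ (fun i j => cl_le (hc₁ i j) (le_max_left _ _))
        (fun i j => cl_le (hc₂ i j) (le_max_left _ _)) hd₁ hd₂)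
  · intro G₁ G₂ hG₁ hG₂ g₁ g₂ hg₁ hg₂ hp₁ hp₂ hc₁ hc₂
    exact rowBRT n hn ρ hρ g₁ g₂ hg₁ hg₂ hp₁ hp₂
      (h₂ G₁ G₂ hG₁ hG₂ g₁ g₂ hg₁ hg₂ hp₁ hp₂ (fun i j => cl_le (hc₁ i j) (le_max_right _ _))
        (fun i j => cl_le (hc₂ i j) (le_max_right _ _)))

end Vale.Agent.P088.HY.Bd
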