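import Vale.Agent.P088.R2.H794.B.Spec3
import Vale.Agent.P088.R2.H593.BRt

/-!
# P088: final statement for domains, bounds of every order and small oscillation
-/

open MeasureTheory Set Filter Topology
open scoped ContDiff Matrix

noncomputable section

namespace Vale.Agent.P088.HY.Bd

open Vale.Agent.P088.LR Vale.Agent.P088.LR.B Vale.Agent.P088.LR.CF Vale.Agent.P088.H639

variable {n : ℕ}

theorem MetB.mono {k k' : ℕ} {b : ℕ → ℝ} {g : MF n} (h : MetB k' b g) (hk : k ≤ k') :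
    MetB k b g :=
  ⟨h.1, h.2.1, fun i j l hl x => h.2.2.1 i j l (hl.trans hk) x, h.2.2.2⟩

/-- From the two rows on the Dirichlet energies to the final statement for domains. -/
theorem finD2_of (hOS : RowBOS) (hSB : RowBSB) : FinD2 := by
  intro n hn ρ hρ b
  obtain ⟨k₁, ε, hε, h₁⟩ := hOS n hn ρ hρ b
  obtain ⟨k₂, r₀, hr₀, h₂⟩ := hSB n hn ρ hρ b
  refine ⟨max k₁ k₂, r₀, ε, hr₀, hε, fun g₁ g₂ hg₁ hg₂ => ⟨fun ho₁ ho₂ => ?_, fun r x₀ hr hrr => ?_⟩⟩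
  · exact rowBRT n hn ρ hρ g₁ g₂ hg₁.1 hg₂.1 hg₁.2.1 hg₂.2.1
      (h₁ g₁ g₂ (hg₁.mono (le_max_left _ _)) (hg₂.mono (le_max_left _ _)) ho₁ ho₂)
  · exact rowBRT n hn _ (sdom_scR hρ hr x₀) g₁ g₂ hg₁.1 hg₂.1 hg₁.2.1 hg₂.2.1
      (h₂ g₁ g₂ (hg₁.mono (le_max_right _ _)) (hg₂.mono (le_max_right _ _)) r x₀ hr hrr)

end Vale.Agent.P088.HY.Bd
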